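import Vale.Agent.P224.R2.H797.Unit
import Vale.Agent.P224.R2.H458.T34.Rows
import Vale.Agent.P224.R2.H458.T34.El
import Vale.Agent.P224.R2.H458.T34.DF0
import Vale.Agent.P224.R2.H458.T34.DF1

/-!
Certificate in dimension 34: the identity and the pointwise inequality.
-/

namespace Vale.Agent.P224.R2.H458.T34

open Vale.Agent.P224.UE Vale.Agent.P224.POS Vale.Agent.P224.PO Vale.Agent.P224.R2.H797
open scoped RealInnerProductSpace

noncomputable section

/-- the blocks with the multiplier `1` -/
def B1 : List BlkX := [⟨els0, 604462909807314587353088, N0⟩,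
  ⟨els1, 151115727451828646838272, N1⟩,
  ⟨els2, 302231454903657293676544, N2⟩,
  ⟨els3, 151115727451828646838272, N3⟩]

/-- the blocks with the multiplier `rr` -/
def Br : List BlkX := []

/-- the integers replacing the first four variables (not powers of two: the kernel hashes a numeral
by its last 64 bits) -/
def Ms : List Nat := [
  Nat.add (Nat.pow 2 103) 1546620212432289767,
  Nat.add (Nat.pow 2 4004) 607476440948241323,
  Nat.add (Nat.pow 2 20931) 1570130847083757153,
  Nat.add (Nat.pow 2 105566) 710424290674317553]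

set_option maxRecDepth 100000 in
/-- **The identity**, checked by the kernel. -/
theorem idM : chkX Ms (PE.sb sbU P) 8 tabU (mulU B1 Br) = true := by
  decide +kernel

lemma hB1 : GoodX B1 :=
  (goodX_cons psd0 (goodX_cons psd1 (goodX_cons psd2 (goodX_cons psd3 goodX_nil))))

lemma hBr : GoodX Br :=
  goodX_nil

/-- **The pointwise inequality of the certificate.** -/
theorem hpos {E : Type*} [NormedAddCommGroup E] [InnerProductSpace ℝ E] (v x N y w : E)
    (hv : ‖v‖ = 1) (hx : ‖x‖ = 1) (hN : ‖N‖ = 1) (hy : ‖y‖ = 1) (hw : ‖w‖ = 1)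
    (hxN : ⟪x, N⟫ = 0) (hyw : ⟪y, w⟫ = 0) (hs : ⟪x, y⟫ < 1) :
    0 ≤ Vale.Agent.P224.UE.W9 (13006142306179079640 / 18446744073709551616) (6349187936816209080 / 18446744073709551616) (-3284591725687929184 / 18446744073709551616) (0 / 18446744073709551616) (213377133564595800 / 18446744073709551616) (95850968826184768 / 18446744073709551616) (0 / 18446744073709551616) (0 / 18446744073709551616) (0 / 18446744073709551616) (dv x N y w v)
      + hsum 34 (rlH 18446744073709551616 rows) (dv x N y w v) :=
  pos_of hs (nonneg_of_chkU 8 (by norm_num) idM rfl hB1 hBr hv hx hN hy hw hxN hyw hs)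

end

end Vale.Agent.P224.R2.H458.T34
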