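import Vale.Agent.P224.R2.H458.T34.Rows
import Vale.Agent.P224.R2.H797.LawE
import Vale.Agent.P224.R2.H797.LawM
import Vale.Agent.P224.R2.H458.Kh

/-!
Certificate in dimension 34: the law is negative for lengths of the mean normal between `1/50` and `1/8`.
-/

namespace Vale.Agent.P224.R2.H458.T34

open Vale.Agent.P224.UE Vale.Agent.P224.POS Vale.Agent.P224.PO Vale.Agent.P224.R2.H178
  Vale.Agent.P224.R2.H797 Vale.Agent.P224.R2.H458

/-- the value of the rows -/
noncomputable def qv : PE := PE.add (PE.add (PE.c (-16332328528)) (PE.mul (PE.c (2890007120)) (PE.v 0)))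
  (PE.mul (PE.c (-268220192)) (PE.v 1))

set_option maxRecDepth 100000 in
lemma qv_chk : chk [] (PE.sub (lvU 34 rows) qv) = true := by decide +kernel

lemma hval_rows (ν ρ : ℝ) : hvalU 34 (rlH 18446744073709551616 rows) ν ρ
    = (-(1020770533 / 40352252661239644160)) + (5160727 / 1152921504606846976) * ν + (-(8381881 / 20176126330619822080)) * ρ := by
  rw [hvalU_eq (by norm_num) qv_chk]
  unfold qv
  simp only [PE.ev_add, PE.ev_mul, PE.ev_c, PE.ev_v]
  have e0 : ([ν, ρ] : List ℝ).getD 0 0 = ν := rfl
  have e1 : ([ν, ρ] : List ℝ).getD 1 0 = ρ := rfl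
  rw [e0, e1]
  push_cast
  ring

lemma kh : (27846547717318059 / 1000000) * (142464 / 100000) ≤ KH 34 := by
  rw [KHn_34]
  norm_num

/-- **The law is negative.** -/
theorem hneg {ν ρ : ℝ} (h1 : (1 / 50) ≤ ν) (h2 : ν ≤ (1 / 8)) (hr1 : ν ^ 2 ≤ ρ) (hr2 : ρ ≤ 1) :
    hvalU 34 (rlH 18446744073709551616 rows) ν ρ ≤ 0 ∧
      ((13006142306179079640 / 18446744073709551616) + (0 / 18446744073709551616) + (-3284591725687929184 / 18446744073709551616) * ν + (6349187936816209080 / 18446744073709551616) * ν ^ 2 + ((213377133564595800 / 18446744073709551616) + (0 / 18446744073709551616) * ν) * ρ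
        + ((95850968826184768 / 18446744073709551616) + (0 / 18446744073709551616)) * ν ^ 2 + (0 / 18446744073709551616) * ((1 - ρ) / ((34 : ℕ) + 1)))
        + (27846547717318059 / 1000000) * hvalU 34 (rlH 18446744073709551616 rows) ν ρ < 0 := by
  rw [hval_rows]
  have ha := sub_nonneg.2 h1
  have hb := sub_nonneg.2 h2
  have hab := mul_nonneg ha hb
  constructor
  · have e1 : (-(1020770533 / 40352252661239644160)) + (5160727 / 1152921504606846976) * ν + (-(8381881 / 20176126330619822080)) * ν ^ 2 < 0 := by
      nlinarith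
    have e2 : (-(1020770533 / 40352252661239644160)) + (5160727 / 1152921504606846976) * ν + (-(8381881 / 20176126330619822080)) * 1 < 0 := by
      linarith
    exact (aff_neg e1 e2 hr1 hr2).le
  · have e1 : ((26000939150048296544553 / 40352252661239644160000000) + (-(61578552193943899331107 / 1152921504606846976000000)) * ν + (805629863205299231 / 2305843009213693952) * ν ^ 2) + ((-(25209391104953438979 / 20176126330619822080000000)) + 0 * ν) * ν ^ 2 < 0 := by
      nlinarith [mul_nonneg hab ha, mul_nonneg hab hb]
    have e2 : ((26000939150048296544553 / 40352252661239644160000000) + (-(61578552193943899331107 / 1152921504606846976000000)) * ν + (805629863205299231 / 2305843009213693952) * ν ^ 2) + ((-(25209391104953438979 / 20176126330619822080000000)) + 0 * ν) * 1 < 0 := by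
      nlinarith
    have e3 := aff_neg e1 e2 hr1 hr2
    refine lt_of_eq_of_lt ?_ e3
    push_cast
    ring

end Vale.Agent.P224.R2.H458.T34
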